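import Vale.Agent.P220.R2.H57.Ret

/-!
# P220: a smooth retraction onto the complex Stiefel base (row R1 of helper562, helper888)
-/

open Set Filter Topology
open scoped ContDiff

set_option linter.all false

namespace Vale.Agent.P220.R2.H888

open Vale.Agent.P220.R2.H57

/-- copied from H180/Sphere.lean -/
theorem exists_invsqrt : ∃ g : ℝ → ℝ, ContDiff ℝ ∞ g ∧ ∀ t, 1 / 4 ≤ t → g t = (√t)⁻¹ := by
  set g : ℝ → ℝ := fun t => Real.smoothTransition (8 * t - 1) * (√t)⁻¹ with hg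
  have hgs : ContDiff ℝ ∞ g := by
    rw [contDiff_iff_contDiffAt]
    intro t
    rcases lt_or_ge 0 t with ht | ht
    · have h1 : ContDiffAt ℝ ∞ (fun t : ℝ => √t) t := contDiffAt_id.sqrt ht.ne'
      have h2 : ContDiff ℝ ∞ fun t : ℝ => Real.smoothTransition (8 * t - 1) :=
        Real.smoothTransition.contDiff.comp ((contDiff_const.mul contDiff_id).sub contDiff_const)
      exact h2.contDiffAt.mul (h1.inv (Real.sqrt_pos.2 ht).ne')
    · have h1 : g =ᶠ[𝓝 t] fun _ => 0 := by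
        filter_upwards [Iio_mem_nhds (show t < 1 / 8 by linarith)] with x hx
        have : Real.smoothTransition (8 * x - 1) = 0 :=
          Real.smoothTransition.zero_of_nonpos (by rw [mem_Iio] at hx; linarith)
        simp only [hg, this, zero_mul]
      exact contDiffAt_const.congr_of_eventuallyEq h1
  have hg1 : ∀ t, 1 / 4 ≤ t → g t = (√t)⁻¹ := by
    intro t ht
    have : Real.smoothTransition (8 * t - 1) = 1 :=
      Real.smoothTransition.one_of_one_le (by linarith)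
    simp only [hg, this, one_mul]
  exact ⟨g, hgs, hg1⟩

section

variable {V : Type} [NormedAddCommGroup V] [InnerProductSpace ℝ V] {J : V ≃ₗᵢ[ℝ] V}

/-- the complex Stiefel base: unit vectors `(x, y)` with `y` orthogonal to the complex line of
`x` -/
def QJ (J : V ≃ₗᵢ[ℝ] V) : Set (WithLp 2 (V × V)) :=
  {x | ‖x.fst‖ ^ 2 + ‖x.snd‖ ^ 2 = 1 ∧ inner ℝ x.fst x.snd = (0 : ℝ) ∧
    inner ℝ x.fst (J x.snd) = (0 : ℝ)}

theorem J_left (hJ : ∀ x, J (J x) = -x) (x y : V) : (inner ℝ (J x) y : ℝ) = -inner ℝ x (J y) := by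
  have h := J.inner_map_map x (J y)
  rw [hJ, inner_neg_right] at h
  linarith

theorem J_self (hJ : ∀ x, J (J x) = -x) (x : V) : (inner ℝ x (J x) : ℝ) = 0 := by
  have h := J_left hJ x x
  rw [real_inner_comm] at h
  linarith

/-- the two inner products of the corrected pair -/
theorem corr (hJ : ∀ x, J (J x) = -x) (x y : V) (t : ℝ) :
    (inner ℝ (x - t • ((inner ℝ x y : ℝ) • y + (inner ℝ x (J y) : ℝ) • J y))
      (y - t • ((inner ℝ x y : ℝ) • x - (inner ℝ x (J y) : ℝ) • J x)) : ℝ) =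
      inner ℝ x y * (1 - t * (‖x‖ ^ 2 + ‖y‖ ^ 2) +
        t ^ 2 * ((inner ℝ x y : ℝ) ^ 2 + (inner ℝ x (J y) : ℝ) ^ 2)) ∧
    (inner ℝ (x - t • ((inner ℝ x y : ℝ) • y + (inner ℝ x (J y) : ℝ) • J y))
      (J (y - t • ((inner ℝ x y : ℝ) • x - (inner ℝ x (J y) : ℝ) • J x))) : ℝ) =
      inner ℝ x (J y) * (1 - t * (‖x‖ ^ 2 + ‖y‖ ^ 2) +
        t ^ 2 * ((inner ℝ x y : ℝ) ^ 2 + (inner ℝ x (J y) : ℝ) ^ 2)) := by
  obtain ⟨a, ha⟩ : ∃ a : ℝ, a = inner ℝ x y := ⟨_, rfl⟩
  obtain ⟨b, hb⟩ : ∃ b : ℝ, b = inner ℝ x (J y) := ⟨_, rfl⟩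
  have e1 : (inner ℝ y x : ℝ) = a := by rw [real_inner_comm, ha]
  have e2 : (inner ℝ (J y) x : ℝ) = b := by rw [real_inner_comm, hb]
  have e3 : (inner ℝ y (J x) : ℝ) = -b := by rw [real_inner_comm, J_left hJ, hb]
  have e4 : (inner ℝ (J y) (J x) : ℝ) = a := by rw [J.inner_map_map, e1]
  have e5 : (inner ℝ x x : ℝ) = ‖x‖ ^ 2 := real_inner_self_eq_norm_sq x
  have e6 : (inner ℝ y y : ℝ) = ‖y‖ ^ 2 := real_inner_self_eq_norm_sq y
  have e7 : (inner ℝ x (J x) : ℝ) = 0 := J_self hJ x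
  have e8 : (inner ℝ y (J y) : ℝ) = 0 := J_self hJ y
  have e9 : (inner ℝ (J y) y : ℝ) = 0 := by rw [real_inner_comm, e8]
  have e10 : (inner ℝ (J y) (J y) : ℝ) = ‖y‖ ^ 2 := by rw [J.inner_map_map, e6]
  rw [← ha, ← hb]
  constructor
  · simp only [inner_sub_left, inner_sub_right, inner_add_left, inner_add_right,
      real_inner_smul_left, real_inner_smul_right, e1, e2, e3, e4, e5, e6, e7, e8, e9, e10, ← ha,
      ← hb]
    ring
  · simp only [map_sub, map_smul, hJ, smul_neg, sub_neg_eq_add, inner_sub_left, inner_sub_right,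
      inner_add_left, inner_add_right, real_inner_smul_left, real_inner_smul_right, e1, e2, e3, e4,
      e5, e6, e7, e8, e9, e10, ← ha, ← hb]
    ring

/-- ROW R1 -/
theorem row_ret [FiniteDimensional ℝ V] (hJ : ∀ x, J (J x) = -x) :
    ∃ (U : Set (WithLp 2 (V × V))) (r : WithLp 2 (V × V) → WithLp 2 (V × V)),
      IsRet (QJ J) U r := by
  obtain ⟨G, hG, hG1⟩ := exists_invsqrt
  let L := WithLp.prodContinuousLinearEquiv 2 ℝ V V
  let a : WithLp 2 (V × V) → ℝ := fun z => inner ℝ z.fst z.snd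
  let b : WithLp 2 (V × V) → ℝ := fun z => inner ℝ z.fst (J z.snd)
  let N : WithLp 2 (V × V) → ℝ := fun z => ‖z.fst‖ ^ 2 + ‖z.snd‖ ^ 2
  let D : WithLp 2 (V × V) → ℝ := fun z => N z ^ 2 - 4 * (a z ^ 2 + b z ^ 2)
  let m : WithLp 2 (V × V) → ℝ := fun z => N z + D z * G (D z)
  let t : WithLp 2 (V × V) → ℝ := fun z => 2 * G (m z) ^ 2
  let X : WithLp 2 (V × V) → V := fun z => z.fst - t z • (a z • z.snd + b z • J z.snd)
  let Y : WithLp 2 (V × V) → V := fun z => z.snd - t z • (a z • z.fst - b z • J z.fst)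
  let n : WithLp 2 (V × V) → ℝ := fun z => ‖X z‖ ^ 2 + ‖Y z‖ ^ 2
  have s1 : ContDiff ℝ ∞ (fun z : WithLp 2 (V × V) => z.fst) := contDiff_fst.comp L.contDiff
  have s2 : ContDiff ℝ ∞ (fun z : WithLp 2 (V × V) => z.snd) := contDiff_snd.comp L.contDiff
  have sJ1 : ContDiff ℝ ∞ (fun z : WithLp 2 (V × V) => J z.fst) := J.contDiff.comp s1
  have sJ2 : ContDiff ℝ ∞ (fun z : WithLp 2 (V × V) => J z.snd) := J.contDiff.comp s2
  have sa : ContDiff ℝ ∞ a := s1.inner ℝ s2
  have sb : ContDiff ℝ ∞ b := s1.inner ℝ sJ2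
  have sN : ContDiff ℝ ∞ N := (s1.norm_sq ℝ).add (s2.norm_sq ℝ)
  have sD : ContDiff ℝ ∞ D := (sN.pow 2).sub (contDiff_const.mul ((sa.pow 2).add (sb.pow 2)))
  have sm : ContDiff ℝ ∞ m := sN.add (sD.mul (hG.comp sD))
  have st : ContDiff ℝ ∞ t := contDiff_const.mul ((hG.comp sm).pow 2)
  have sX : ContDiff ℝ ∞ X := s1.sub (st.smul ((sa.smul s2).add (sb.smul sJ2)))
  have sY : ContDiff ℝ ∞ Y := s2.sub (st.smul ((sa.smul s1).sub (sb.smul sJ1)))
  have sn : ContDiff ℝ ∞ n := (sX.norm_sq ℝ).add (sY.norm_sq ℝ)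
  let r : WithLp 2 (V × V) → WithLp 2 (V × V) := fun z =>
    L.symm (G (n z) • X z, G (n z) • Y z)
  have sr : ContDiff ℝ ∞ r := L.symm.contDiff.comp
    (((hG.comp sn).smul sX).prodMk ((hG.comp sn).smul sY))
  have r1 : ∀ z, (r z).fst = G (n z) • X z := fun z => rfl
  have r2 : ∀ z, (r z).snd = G (n z) • Y z := fun z => rfl
  refine ⟨{z | 1 / 4 < D z ∧ 1 / 4 < n z}, r, ?_, ?_, ?_, sr, ?_, ?_⟩
  · exact (isClosed_eq sN.continuous continuous_const).inter
      ((isClosed_eq sa.continuous continuous_const).inter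
        (isClosed_eq sb.continuous continuous_const))
  · exact (isOpen_lt continuous_const sD.continuous).inter
      (isOpen_lt continuous_const sn.continuous)
  · rintro z ⟨h1, h2, h3⟩
    have ha : a z = 0 := h2
    have hb : b z = 0 := h3
    have hN : N z = 1 := h1
    have hX : X z = z.fst := by
      change z.fst - t z • (a z • z.snd + b z • J z.snd) = z.fst
      rw [ha, hb, zero_smul, zero_smul, add_zero, smul_zero, sub_zero]
    have hY : Y z = z.snd := by
      change z.snd - t z • (a z • z.fst - b z • J z.fst) = z.snd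
      rw [ha, hb, zero_smul, zero_smul, sub_zero, smul_zero, sub_zero]
    constructor
    · change 1 / 4 < N z ^ 2 - 4 * (a z ^ 2 + b z ^ 2)
      rw [ha, hb, hN]
      norm_num
    · change 1 / 4 < ‖X z‖ ^ 2 + ‖Y z‖ ^ 2
      rw [hX, hY]
      change 1 / 4 < N z
      rw [hN]
      norm_num
  · rintro z ⟨hD, hn⟩
    have hD0 : 0 < D z := lt_trans (by norm_num) hD
    have hn0 : 0 < n z := lt_trans (by norm_num) hn
    have hw : D z * G (D z) = √(D z) := by
      rw [hG1 _ hD.le]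
      nth_rewrite 1 [← Real.mul_self_sqrt hD0.le]
      rw [mul_assoc, mul_inv_cancel₀ (Real.sqrt_pos.2 hD0).ne', mul_one]
    have hs : 1 / 2 ≤ √(D z) := by
      rw [Real.le_sqrt' (by norm_num)]
      linarith
    have hN0 : 0 ≤ N z := by positivity
    have hm : m z = N z + √(D z) := by
      change N z + D z * G (D z) = _
      rw [hw]
    have hm1 : 1 / 4 ≤ m z := by rw [hm]; linarith
    have hm0 : 0 < m z := lt_of_lt_of_le (by norm_num) hm1
    have ht : t z = 2 / m z := by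
      change 2 * G (m z) ^ 2 = _
      rw [hG1 _ hm1, inv_pow, Real.sq_sqrt hm0.le]
      rfl
    have hq : 1 - t z * N z + t z ^ 2 * (a z ^ 2 + b z ^ 2) = 0 := by
      have h4 : √(D z) ^ 2 = N z ^ 2 - 4 * (a z ^ 2 + b z ^ 2) := Real.sq_sqrt hD0.le
      rw [ht]
      field_simp
      rw [hm]
      nlinarith [h4]
    obtain ⟨c1, c2⟩ := corr hJ z.fst z.snd (t z)
    have d1 : (inner ℝ (X z) (Y z) : ℝ) = 0 := by
      refine c1.trans ?_
      change a z * (1 - t z * N z + t z ^ 2 * (a z ^ 2 + b z ^ 2)) = 0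
      rw [hq, mul_zero]
    have d2 : (inner ℝ (X z) (J (Y z)) : ℝ) = 0 := by
      refine c2.trans ?_
      change b z * (1 - t z * N z + t z ^ 2 * (a z ^ 2 + b z ^ 2)) = 0
      rw [hq, mul_zero]
    refine ⟨?_, ?_, ?_⟩
    · rw [r1, r2, norm_smul, norm_smul, mul_pow, mul_pow, ← mul_add, hG1 _ hn.le, norm_inv,
        inv_pow, Real.norm_eq_abs, sq_abs, Real.sq_sqrt hn0.le]
      exact inv_mul_cancel₀ hn0.ne'
    · rw [r1, r2, real_inner_smul_left, real_inner_smul_right, d1, mul_zero, mul_zero]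
    · rw [r1, r2, map_smul, real_inner_smul_left, real_inner_smul_right, d2, mul_zero, mul_zero]
  · rintro z ⟨h1, h2, h3⟩
    have ha : a z = 0 := h2
    have hb : b z = 0 := h3
    have hN : N z = 1 := h1
    have hX : X z = z.fst := by
      change z.fst - t z • (a z • z.snd + b z • J z.snd) = z.fst
      rw [ha, hb, zero_smul, zero_smul, add_zero, smul_zero, sub_zero]
    have hY : Y z = z.snd := by
      change z.snd - t z • (a z • z.fst - b z • J z.fst) = z.snd
      rw [ha, hb, zero_smul, zero_smul, sub_zero, smul_zero, sub_zero]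
    have hn : n z = 1 := by
      change ‖X z‖ ^ 2 + ‖Y z‖ ^ 2 = 1
      rw [hX, hY]
      exact hN
    have hg : G 1 = 1 := by rw [hG1 _ (by norm_num)]; simp
    change L.symm (G (n z) • X z, G (n z) • Y z) = z
    rw [hn, hg, hX, hY, one_smul, one_smul]
    rfl

end

end Vale.Agent.P220.R2.H888
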